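import Mathlib
import Vale.Agent.Lib.P043.Periodic

namespace Vale.Agent.Results.P043.PrimeSizeTiles

open Vale.Agent.Lib.P043

/-- Tiles of prime cardinality satisfy the periodic tiling conjecture in every dimension.
Let `F` be a finite subset of `ℤ^d` with a prime number `p` of elements and let `A` be a tiling
of `ℤ^d` by `F`, that is, every `g` in `ℤ^d` is `a + f` for exactly one pair `(a, f)` with
`a ∈ A`, `f ∈ F`.  Then
* `A` is invariant under the translations `p • (f - f')`, `f, f' ∈ F`;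
* `F` admits a periodic tiling: there are a tiling `A'` of `ℤ^d` by `F` and a subgroup `P` of
  finite index in `ℤ^d` with `A' + t = A'` for every `t ∈ P`. -/
theorem result (d : ℕ) (p : ℕ) (hp : p.Prime) (F : Finset (Fin d → ℤ)) (hF : F.card = p)
    (A : Set (Fin d → ℤ))
    (hA : ∀ g : Fin d → ℤ,
      ∃! q : (Fin d → ℤ) × (Fin d → ℤ), q.1 ∈ A ∧ q.2 ∈ F ∧ q.1 + q.2 = g) :
    (∀ f ∈ F, ∀ f' ∈ F, ∀ a, a ∈ A ↔ a + p • (f - f') ∈ A) ∧
    ∃ A' : Set (Fin d → ℤ),
      (∀ g : Fin d → ℤ,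
        ∃! q : (Fin d → ℤ) × (Fin d → ℤ), q.1 ∈ A' ∧ q.2 ∈ F ∧ q.1 + q.2 = g) ∧
      ∃ P : AddSubgroup (Fin d → ℤ), P.FiniteIndex ∧ ∀ t ∈ P, ∀ a, a ∈ A' ↔ a + t ∈ A' := by
  have : Fact p.Prime := ⟨hp⟩
  have : AddGroup.FG (Fin d → ℤ) := Module.Finite.iff_addGroup_fg.mp inferInstance
  have hT : IsTiling A F := hA
  refine ⟨prime_tiling_shift_iff p hF hT, ?_⟩
  obtain ⟨A', hA', P, hP, hinv⟩ := exists_periodic_tiling p hF hT
  refine ⟨A', hA', P, hP, ?_⟩
  intro t ht a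
  constructor
  · exact hinv t ht a
  · intro h
    have := hinv (-t) (neg_mem ht) _ h
    have e : a + t + -t = a := by abel
    rw [e] at this; exact this

end Vale.Agent.Results.P043.PrimeSizeTiles
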