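import Mathlib

namespace Vale.Agent.Results.P043.Progressions

/-- `A ⊕ F = ℤ^d`: every `g` has a unique expression `g = x + f` with `x ∈ A`, `f ∈ F`. -/
def IsTiling {d : ℕ} (A F : Set (Fin d → ℤ)) : Prop :=
  ∀ g : Fin d → ℤ, ∃! p : (Fin d → ℤ) × (Fin d → ℤ), p.1 ∈ A ∧ p.2 ∈ F ∧ p.1 + p.2 = g

/-- `A` is periodic: `A + h = A` for every `h` in some subgroup of finite index of `ℤ^d`. -/
def IsPeriodic {d : ℕ} (A : Set (Fin d → ℤ)) : Prop :=
  ∃ H : AddSubgroup (Fin d → ℤ), H.FiniteIndex ∧ ∀ h ∈ H, ∀ x, x + h ∈ A ↔ x ∈ A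

/-- The `k`-term arithmetic progression `{a, a + v, …, a + (k-1) v}` in `ℤ^d`. -/
def progression {d : ℕ} (a v : Fin d → ℤ) (k : ℕ) : Set (Fin d → ℤ) :=
  {x | ∃ j : ℕ, j < k ∧ x = a + (j : ℤ) • v}

/-- Every finite arithmetic progression with nonzero difference in `ℤ^d` (any `d`) tiles
`ℤ^d` by translations and admits a periodic tiling. -/
theorem result (d k : ℕ) (a v : Fin d → ℤ) (hk : 0 < k) (hv : v ≠ 0) :
    ∃ A : Set (Fin d → ℤ), IsTiling A (progression a v k) ∧ IsPeriodic A := by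
  obtain ⟨i, hi⟩ : ∃ i, v i ≠ 0 := by
    by_contra h
    apply hv
    funext i
    by_contra hvi
    exact h ⟨i, hvi⟩
  have hk' : (0 : ℤ) < (k : ℤ) := by exact_mod_cast hk
  refine ⟨{y | (k : ℤ) ∣ y i / v i}, ?_, ?_⟩
  · intro g
    have hQ0 : 0 ≤ ((g i - a i) / v i) % (k : ℤ) := Int.emod_nonneg _ hk'.ne'
    have hQ1 : ((g i - a i) / v i) % (k : ℤ) < k := Int.emod_lt_of_pos _ hk'
    -- the key division identity
    have key : ∀ j : ℤ, (g i - a i - j * v i) / v i = (g i - a i) / v i - j := by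
      intro j
      have h1 := Int.add_mul_ediv_right (g i - a i) (-j) hi
      have h2 : g i - a i - j * v i = g i - a i + -j * v i := by ring
      rw [h2, h1]; ring
    refine ⟨(g - (a + ((((g i - a i) / v i) % (k : ℤ)).toNat : ℤ) • v),
      a + ((((g i - a i) / v i) % (k : ℤ)).toNat : ℤ) • v), ⟨?_, ?_, ?_⟩, ?_⟩
    · show (k : ℤ) ∣ (g - (a + ((((g i - a i) / v i) % (k : ℤ)).toNat : ℤ) • v)) i / v i
      have h3 : (g - (a + ((((g i - a i) / v i) % (k : ℤ)).toNat : ℤ) • v)) i
          = g i - a i - (((g i - a i) / v i) % (k : ℤ)) * v i := by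
        simp only [Pi.sub_apply, Pi.add_apply, Pi.smul_apply, smul_eq_mul,
          Int.toNat_of_nonneg hQ0]
        ring
      rw [h3, key]
      exact ⟨((g i - a i) / v i) / (k : ℤ), by
        have := Int.emod_add_mul_ediv ((g i - a i) / v i) (k : ℤ)
        linarith⟩
    · exact ⟨(((g i - a i) / v i) % (k : ℤ)).toNat, by omega, rfl⟩
    · simp
    · rintro ⟨y, f⟩ ⟨hy, ⟨j, hj, rfl⟩, hsum⟩
      simp only at hy hsum
      have hyeq : y = g - (a + (j : ℤ) • v) := by rw [← hsum]; abel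
      have h4 : y i = g i - a i - (j : ℤ) * v i := by
        rw [hyeq]
        simp only [Pi.sub_apply, Pi.add_apply, Pi.smul_apply, smul_eq_mul]
        ring
      have hy' : (k : ℤ) ∣ y i / v i := hy
      rw [h4, key] at hy'
      -- j = Q % k
      have hj' : ((g i - a i) / v i) % (k : ℤ) = (j : ℤ) := by
        have h5 : ((g i - a i) / v i) % (k : ℤ) = (j : ℤ) % (k : ℤ) :=
          Int.emod_eq_emod_iff_emod_sub_eq_zero.mpr (Int.emod_eq_zero_of_dvd hy')
        rw [h5]
        exact Int.emod_eq_of_lt (by omega) (by omega)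
      have hjnat : (((g i - a i) / v i) % (k : ℤ)).toNat = j := by
        rw [hj']; simp
      rw [hyeq, hjnat]
  · refine ⟨AddSubgroup.comap (Pi.evalAddMonoidHom (fun _ : Fin d => ℤ) i)
      (AddSubgroup.zmultiples ((k : ℤ) * v i)), ?_, ?_⟩
    · constructor
      rw [AddSubgroup.index_comap_of_surjective _
        (Function.surjective_eval i), Int.index_zmultiples]
      have : (k : ℤ) * v i ≠ 0 := mul_ne_zero hk'.ne' hi
      exact Int.natAbs_ne_zero.mpr this
    · intro h hh x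
      rw [AddSubgroup.mem_comap, AddSubgroup.mem_zmultiples_iff] at hh
      obtain ⟨t, ht⟩ := hh
      have hhi : h i = (t * k) * v i := by
        have : (Pi.evalAddMonoidHom (fun _ : Fin d => ℤ) i) h = h i := rfl
        rw [← this, ← ht, smul_eq_mul]; ring
      show (k : ℤ) ∣ (x + h) i / v i ↔ (k : ℤ) ∣ x i / v i
      rw [Pi.add_apply, hhi, Int.add_mul_ediv_right _ _ hi]
      constructor
      · intro h6
        have h7 : (k : ℤ) ∣ t * k := dvd_mul_left _ _
        exact (Int.dvd_add_left h7).mp h6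
      · intro h6
        exact dvd_add h6 (dvd_mul_left _ _)

end Vale.Agent.Results.P043.Progressions
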